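import Mathlib

namespace Vale.Agent.P181

open Polynomial Finset

section coeff
variable {A : Type*} [CommRing A] [Algebra ℂ A]

theorem coeff_zero_of_eval (φ : A →ₗ[ℂ] ℂ) (H : A[X])
    (h : ∀ t : ℂ, φ (H.eval (algebraMap ℂ A t)) = 0) (l : ℕ) : φ (H.coeff l) = 0 := by
  classical
  let p : ℂ[X] := ∑ k ∈ range (H.natDegree + 1), monomial k (φ (H.coeff k))
  have hp : p = 0 := by
    apply Polynomial.funext
    intro t
    rw [eval_zero, ← h t, eval_eq_sum_range (p := H), map_sum]
    simp only [p, eval_finsetSum, eval_monomial]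
    refine sum_congr rfl fun k _ => ?_
    rw [← map_pow, mul_comm (H.coeff k), ← Algebra.smul_def, map_smul, smul_eq_mul, mul_comm]
  by_cases hl : l < H.natDegree + 1
  · have : p.coeff l = φ (H.coeff l) := by
      simp only [p, finsetSum_coeff, coeff_monomial]
      rw [sum_eq_single l]
      · simp
      · intro b _ hb; simp [hb]
      · intro hb; exact absurd (mem_range.2 hl) hb
    rw [← this, hp, coeff_zero]
  · rw [coeff_eq_zero_of_natDegree_lt (by omega), map_zero]

end coeff

section ch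
variable {S : Type*} [CommRing S] [Algebra ℂ S]

/-- `Ch W n h`: `h` is a product of `n` elements of `W`. -/
inductive Ch (W : Submodule ℂ S) : ℕ → S → Prop
  | one : Ch W 0 1
  | mul {n : ℕ} {h v : S} : Ch W n h → v ∈ W → Ch W (n + 1) (h * v)

variable {W : Submodule ℂ S}

theorem Ch.mul' {m n : ℕ} {h h' : S} (h1 : Ch W m h) (h2 : Ch W n h') :
    Ch W (m + n) (h * h') := by
  induction h2 with
  | one => simpa using h1
  | mul _ hv ih => rw [← mul_assoc, ← add_assoc]; exact ih.mul hv

theorem Ch.prod_range (n : ℕ) (f : ℕ → S) (hf : ∀ i, f i ∈ W) :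
    Ch W n (∏ i ∈ range n, f i) := by
  induction n with
  | zero => simpa using Ch.one
  | succ n ih => rw [prod_range_succ]; exact ih.mul (hf n)

theorem Ch.exists_fin {n : ℕ} {h : S} (h1 : Ch W n h) :
    ∃ η : Fin n → S, (∀ j, η j ∈ W) ∧ h = ∏ j, η j := by
  induction h1 with
  | one => exact ⟨fun j => j.elim0, fun j => j.elim0, by simp⟩
  | @mul n h v _ hv ih =>
    obtain ⟨η, h1, h2⟩ := ih
    refine ⟨Fin.snoc η v, fun j => ?_, ?_⟩
    · refine Fin.lastCases ?_ (fun j => ?_) j
      · simpa using hv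
      · simpa using h1 j
    · rw [Fin.prod_univ_castSucc]; simp [h2]

theorem Ch.inv_succ {n : ℕ} {h : S} (h1 : Ch W (n + 1) h) :
    ∃ h' v, Ch W n h' ∧ v ∈ W ∧ h = h' * v := by
  cases h1 with
  | mul h2 hv => exact ⟨_, _, h2, hv, rfl⟩

theorem Ch.inv_zero {h : S} (h1 : Ch W 0 h) : h = 1 := by
  cases h1; rfl

theorem zero_on_pow_of_ch (n : ℕ) (φ : S →ₗ[ℂ] ℂ) (h : ∀ g, Ch W n g → φ g = 0) :
    ∀ g ∈ W ^ n, φ g = 0 := by
  induction n generalizing φ with
  | zero =>
    intro g hg
    rw [pow_zero, Submodule.mem_one] at hg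
    obtain ⟨c, rfl⟩ := hg
    rw [Algebra.algebraMap_eq_smul_one, map_smul, h 1 Ch.one, smul_zero]
  | succ n ih =>
    intro g hg
    rw [pow_succ] at hg
    refine Submodule.mul_induction_on hg (fun y hy v hv => ?_) (fun x y hx hy => ?_)
    · exact ih (φ ∘ₗ LinearMap.mulRight ℂ v) (fun g hg => h _ (hg.mul hv)) y hy
    · rw [map_add, hx, hy, add_zero]

theorem zero_on_pow_of_powers (n : ℕ) (φ : S →ₗ[ℂ] ℂ) (h : ∀ w ∈ W, φ (w ^ n) = 0) :
    ∀ g ∈ W ^ n, φ g = 0 := by
  induction n generalizing φ with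
  | zero =>
    intro g hg
    rw [pow_zero, Submodule.mem_one] at hg
    obtain ⟨c, rfl⟩ := hg
    have := h 0 W.zero_mem
    rw [pow_zero] at this
    rw [Algebra.algebraMap_eq_smul_one, map_smul, this, smul_zero]
  | succ n ih =>
    intro g hg
    rw [pow_succ] at hg
    refine Submodule.mul_induction_on hg (fun y hy v hv => ?_) (fun x y hx hy => ?_)
    · refine ih (φ ∘ₗ LinearMap.mulRight ℂ v) (fun w hw => ?_) y hy
      have h1 := coeff_zero_of_eval φ ((C v * X + C w) ^ (n + 1)) (fun t => by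
        have := h (t • v + w) (W.add_mem (W.smul_mem t hv) hw)
        rw [Algebra.smul_def, mul_comm] at this
        rw [eval_pow, eval_add, eval_mul, eval_C, eval_C, eval_X]
        exact this) 1
      have h2 : ((C v * X + C w : S[X]) ^ (n + 1)).coeff 1 = ((n + 1 : ℕ) : ℂ) • (w ^ n * v) := by
        have h3 := coeff_derivative ((C v * X + C w : S[X]) ^ (n + 1)) 0
        rw [derivative_pow] at h3
        simp only [zero_add, Nat.cast_zero, mul_one] at h3
        rw [← h3, coeff_zero_eq_eval_zero, Algebra.smul_def, map_natCast (algebraMap ℂ S)]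
        simp only [derivative_add, derivative_C, derivative_mul, derivative_X, eval_mul, eval_pow,
          eval_add, eval_C, eval_X, mul_zero, zero_add, add_zero, mul_one,
          zero_mul, Nat.add_sub_cancel]
        rw [mul_assoc]
      rw [h2, map_smul, smul_eq_mul, mul_eq_zero] at h1
      rcases h1 with h1 | h1
      · exact absurd h1 (Nat.cast_ne_zero.2 (Nat.succ_ne_zero n))
      · simpa using h1
    · rw [map_add, hx, hy, add_zero]

theorem ch_binary (j : ℕ) (hj : 0 < j) (x w : S) (hx : x ∈ W) (hw : w ∈ W) (s : ℂ) :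
    Ch W j (x ^ j + s • w ^ j) := by
  obtain ⟨α, hα⟩ := IsAlgClosed.exists_pow_nat_eq (-s) hj
  obtain ⟨ζ, hζ⟩ : ∃ ζ : ℂ, IsPrimitiveRoot ζ j := ⟨_, Complex.isPrimitiveRoot_exp j hj.ne'⟩
  have h1 := X_pow_sub_C_eq_prod hζ hj hα
  have h3 : (∏ i ∈ range j, (X - C (ζ ^ i * α) : ℂ[X])).homogenize j
      = ∏ i ∈ range j, (X - C (ζ ^ i * α) : ℂ[X]).homogenize 1 := by
    have := homogenize_finsetProd (s := range j) (p := fun i => (X - C (ζ ^ i * α) : ℂ[X]))
      (n := fun _ => 1) (fun i _ => (natDegree_X_sub_C (ζ ^ i * α)).le)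
    rw [← this]
    simp
  have h5 : ∀ c : ℂ, MvPolynomial.aeval ![x, w] ((X - C c : ℂ[X]).homogenize 1) = x - c • w := by
    intro c
    rw [homogenize_sub, homogenize_X one_ne_zero, homogenize_C]
    simp [Algebra.smul_def]
  have h6 : MvPolynomial.aeval ![x, w] ((X ^ j - C (-s) : ℂ[X]).homogenize j)
      = x ^ j + s • w ^ j := by
    rw [homogenize_sub, homogenize_X_pow le_rfl, homogenize_C]
    simp [Algebra.smul_def]
  have h4 : x ^ j + s • w ^ j = ∏ i ∈ range j, (x - (ζ ^ i * α) • w) := by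
    rw [← h6, h1, h3, map_prod]
    exact prod_congr rfl fun i _ => h5 _
  rw [h4]
  exact Ch.prod_range j _ fun i => W.sub_mem hx (W.smul_mem _ hw)

end ch

end Vale.Agent.P181
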