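import Mathlib

namespace Vale.Agent.P181

open Finset Equiv TensorProduct

noncomputable section

variable {ι : Type} {M N : Type} [AddCommGroup M] [Module ℂ M] [AddCommGroup N] [Module ℂ N]

theorem exists_slift (f : MultilinearMap ℂ (fun _ : ι => M) N)
    (hf : ∀ (e : Perm ι) (v : ι → M), f (fun i => v (e i)) = f v) :
    ∃ g : SymmetricPower ℂ ι M →ₗ[ℂ] N, ∀ v, g (SymmetricPower.tprod ℂ v) = f v := by
  let F : (⨂[ℂ] _ : ι, M) →ₗ[ℂ] N := PiTensorProduct.lift f
  have hle : addConGen (SymmetricPower.Rel ℂ ι M) ≤ AddCon.ker F.toAddMonoidHom := by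
    rw [AddCon.addConGen_le]
    intro x y h
    cases h with
    | perm e v =>
      rw [AddCon.ker_rel]
      simp only [F, LinearMap.toAddMonoidHom_coe, PiTensorProduct.lift.tprod]
      exact (hf e v).symm
  let G : SymmetricPower ℂ ι M →+ N := AddCon.lift _ F.toAddMonoidHom hle
  have hG : ∀ x, G (SymmetricPower.mk ℂ ι M x) = F x := fun x => rfl
  have hsurj : Function.Surjective (SymmetricPower.mk ℂ ι M) :=
    LinearMap.range_eq_top.1 (SymmetricPower.range_mk ℂ ι M)
  refine ⟨{ toFun := G, map_add' := G.map_add, map_smul' := fun r x => ?_ }, fun v => ?_⟩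
  · obtain ⟨y, rfl⟩ := hsurj x
    rw [← map_smul, hG, hG, map_smul, RingHom.id_apply]
  · change G (SymmetricPower.mk ℂ ι M (PiTensorProduct.tprod ℂ v)) = f v
    rw [hG]
    simp only [F, PiTensorProduct.lift.tprod]

def slift (f : MultilinearMap ℂ (fun _ : ι => M) N)
    (hf : ∀ (e : Perm ι) (v : ι → M), f (fun i => v (e i)) = f v) :
    SymmetricPower ℂ ι M →ₗ[ℂ] N := (exists_slift f hf).choose

theorem slift_tprod (f : MultilinearMap ℂ (fun _ : ι => M) N)
    (hf : ∀ (e : Perm ι) (v : ι → M), f (fun i => v (e i)) = f v) (v : ι → M) :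
    slift f hf (SymmetricPower.tprod ℂ v) = f v := (exists_slift f hf).choose_spec v

theorem sext {f g : SymmetricPower ℂ ι M →ₗ[ℂ] N}
    (h : ∀ v, f (SymmetricPower.tprod ℂ v) = g (SymmetricPower.tprod ℂ v)) : f = g := by
  refine LinearMap.ext_on (SymmetricPower.span_tprod_eq_top ℂ ι M) ?_
  rintro _ ⟨v, rfl⟩
  exact h v

theorem sext_span [Finite ι] {γ : Type} (t : γ → M) (ht : Submodule.span ℂ (Set.range t) = ⊤)
    {f g : SymmetricPower ℂ ι M →ₗ[ℂ] N}
    (h : ∀ v : ι → γ, f (SymmetricPower.tprod ℂ fun i => t (v i))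
      = g (SymmetricPower.tprod ℂ fun i => t (v i))) : f = g := by
  have : f.compMultilinearMap (SymmetricPower.tprod ℂ) =
      g.compMultilinearMap (SymmetricPower.tprod ℂ) :=
    MultilinearMap.ext_of_span_eq_top (γ := fun _ : ι => γ) (g := fun _ j => t j)
      (fun _ => ht) h
  exact sext fun v => DFunLike.congr_fun this v

theorem sext2 {κ : Type} [Finite ι]
    {f g : SymmetricPower ℂ ι (SymmetricPower ℂ κ M) →ₗ[ℂ] N}
    (h : ∀ v : ι → κ → M,
      f (SymmetricPower.tprod ℂ fun i => SymmetricPower.tprod ℂ (v i))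
      = g (SymmetricPower.tprod ℂ fun i => SymmetricPower.tprod ℂ (v i))) : f = g :=
  sext_span _ (SymmetricPower.span_tprod_eq_top ℂ κ M) h

def smap (f : M →ₗ[ℂ] N) : SymmetricPower ℂ ι M →ₗ[ℂ] SymmetricPower ℂ ι N :=
  slift ((SymmetricPower.tprod ℂ).compLinearMap fun _ => f) (fun e v =>
    SymmetricPower.tprod_equiv e fun i => f (v i))

theorem smap_tprod (f : M →ₗ[ℂ] N) (v : ι → M) :
    smap f (SymmetricPower.tprod ℂ v) = SymmetricPower.tprod ℂ fun i => f (v i) :=
  slift_tprod _ _ v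

variable [Fintype ι] [DecidableEq ι]

def symz : SymmetricPower ℂ ι M →ₗ[ℂ] ⨂[ℂ] _ : ι, M :=
  slift (∑ σ : Perm ι, (PiTensorProduct.tprod ℂ).domDomCongr σ) (fun e v => by
    simp only [_root_.sum_apply, MultilinearMap.domDomCongr_apply]
    exact Fintype.sum_equiv (Equiv.mulLeft e) _ _ fun σ => rfl)

theorem symz_tprod (v : ι → M) :
    symz (SymmetricPower.tprod ℂ v)
      = ∑ σ : Perm ι, PiTensorProduct.tprod ℂ fun i => v (σ i) := by
  rw [symz, slift_tprod]
  simp only [_root_.sum_apply, MultilinearMap.domDomCongr_apply]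

theorem mk_symz (x : SymmetricPower ℂ ι M) :
    SymmetricPower.mk ℂ ι M (symz x) = ((Fintype.card ι).factorial : ℂ) • x := by
  have : SymmetricPower.mk ℂ ι M ∘ₗ symz
      = ((Fintype.card ι).factorial : ℂ) • LinearMap.id := by
    refine sext fun v => ?_
    rw [LinearMap.comp_apply, symz_tprod, map_sum]
    have : ∀ σ : Perm ι, SymmetricPower.mk ℂ ι M (PiTensorProduct.tprod ℂ fun i => v (σ i))
        = SymmetricPower.tprod ℂ v := fun σ => SymmetricPower.tprod_equiv σ v
    simp only [this, sum_const, card_univ, Fintype.card_perm, LinearMap.smul_apply,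
      LinearMap.id_apply, Nat.cast_smul_eq_nsmul]
  exact DFunLike.congr_fun this x

def BB (η : ι → M →ₗ[ℂ] ℂ) : SymmetricPower ℂ ι M →ₗ[ℂ] ℂ :=
  PiTensorProduct.lift ((MultilinearMap.mkPiAlgebra ℂ ι ℂ).compLinearMap η) ∘ₗ symz

theorem BB_tprod (η : ι → M →ₗ[ℂ] ℂ) (v : ι → M) :
    BB η (SymmetricPower.tprod ℂ v) = ∑ σ : Perm ι, ∏ i, η i (v (σ i)) := by
  rw [BB, LinearMap.comp_apply, symz_tprod, map_sum]
  simp

theorem BB_const (η : M →ₗ[ℂ] ℂ) (v : ι → M) :
    BB (fun _ => η) (SymmetricPower.tprod ℂ v)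
      = ((Fintype.card ι).factorial : ℂ) * ∏ i, η (v i) := by
  rw [BB_tprod]
  have : ∀ σ : Perm ι, ∏ i, η (v (σ i)) = ∏ i, η (v i) := fun σ =>
    Fintype.prod_equiv σ _ _ fun _ => rfl
  simp only [this, sum_const, card_univ, Fintype.card_perm, nsmul_eq_mul]

theorem eq_zero_of_BB (x : SymmetricPower ℂ ι M) (h : ∀ η, BB η x = 0) : x = 0 := by
  let c := Module.Basis.ofVectorSpace ℂ M
  let cc := Basis.piTensorProduct (fun _ : ι => c)
  have h1 : symz x = 0 := by
    refine cc.repr.injective ?_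
    rw [map_zero]
    ext p
    have : cc.coord p = PiTensorProduct.lift
        ((MultilinearMap.mkPiAlgebra ℂ ι ℂ).compLinearMap fun i => c.coord (p i)) := by
      ext v
      simp [cc]
    have h2 := h fun i => c.coord (p i)
    rw [BB, LinearMap.comp_apply, ← this] at h2
    exact h2
  have h3 := mk_symz x
  rw [h1, map_zero, eq_comm, smul_eq_zero] at h3
  exact h3.resolve_left (Nat.cast_ne_zero.2 (Nat.factorial_ne_zero _))

theorem sum_sign (α : ι → ι) :
    ∑ ε : ι → Bool, (∏ j, (if ε j then 1 else -1 : ℂ)) * ∏ k, (if ε (α k) then 1 else 0 : ℂ)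
      = if Function.Surjective α then 1 else 0 := by
  have h1 : ∀ ε : ι → Bool, ∏ k, (if ε (α k) then 1 else 0 : ℂ)
      = ∏ j, (if ε j then 1 else if j ∈ Set.range α then 0 else 1 : ℂ) := by
    intro ε
    by_cases h : ∀ k, ε (α k) = true
    · rw [prod_eq_one fun k _ => by simp [h k], prod_eq_one]
      intro j _
      by_cases hj : j ∈ Set.range α
      · obtain ⟨k, rfl⟩ := hj
        simp [h k]
      · simp [hj]
    · push Not at h
      obtain ⟨k, hk⟩ := h
      rw [prod_eq_zero (mem_univ k) (by simp [hk]), prod_eq_zero (mem_univ (α k)) (by simp [hk])]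
  simp only [h1, ← prod_mul_distrib]
  rw [← Fintype.piFinset_univ, ← prod_univ_sum (fun _ : ι => (univ : Finset Bool))
    (fun j (e : Bool) => (if e then 1 else -1 : ℂ) *
      (if e then 1 else if j ∈ Set.range α then 0 else 1 : ℂ))]
  split_ifs with h
  · refine prod_eq_one fun j _ => ?_
    have : j ∈ Set.range α := h j
    simp [this]
  · unfold Function.Surjective at h
    push Not at h
    obtain ⟨j, hj⟩ := h
    refine prod_eq_zero (mem_univ j) ?_
    have : j ∉ Set.range α := fun ⟨k, hk⟩ => hj k hk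
    simp [this]

theorem span_powers : Submodule.span ℂ (Set.range fun v : M =>
    (SymmetricPower.tprod ℂ fun _ : ι => v)) = ⊤ := by
  rw [eq_top_iff, ← SymmetricPower.span_tprod_eq_top ℂ ι M, Submodule.span_le]
  rintro _ ⟨v, rfl⟩
  have h1 : ∑ ε : ι → Bool, (∏ j, (if ε j then 1 else -1 : ℂ)) •
      (SymmetricPower.tprod ℂ fun _ : ι => ∑ j, (if ε j then 1 else 0 : ℂ) • v j)
      = ((Fintype.card ι).factorial : ℂ) • SymmetricPower.tprod ℂ v := by
    have h2 : ∀ ε : ι → Bool,
        (SymmetricPower.tprod ℂ fun _ : ι => ∑ j, (if ε j then 1 else 0 : ℂ) • v j)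
        = ∑ α : ι → ι, (∏ k, (if ε (α k) then 1 else 0 : ℂ)) •
          SymmetricPower.tprod ℂ fun k => v (α k) := by
      intro ε
      rw [MultilinearMap.map_sum]
      refine sum_congr rfl fun α _ => ?_
      exact MultilinearMap.map_smul_univ _ _ _
    simp only [h2, smul_sum, smul_smul]
    rw [sum_comm]
    simp only [← sum_smul, sum_sign]
    rw [← sum_subset (subset_univ (univ.map ⟨fun σ : Perm ι => (σ : ι → ι), DFunLike.coe_injective⟩))]
    · rw [sum_map]
      simp only [Function.Embedding.coeFn_mk, Equiv.surjective, if_true, one_smul,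
        SymmetricPower.tprod_equiv, sum_const, card_univ, Fintype.card_perm,
        Nat.cast_smul_eq_nsmul]
    · intro α _ hα
      rw [if_neg, zero_smul]
      intro hs
      exact hα (mem_map.2 ⟨Equiv.ofBijective α (Finite.surjective_iff_bijective.1 hs),
        mem_univ _, rfl⟩)
  have h3 : ((Fintype.card ι).factorial : ℂ) ≠ 0 := Nat.cast_ne_zero.2 (Nat.factorial_ne_zero _)
  rw [SetLike.mem_coe, ← Submodule.smul_mem_iff _ h3, ← h1]
  exact Submodule.sum_mem _ fun ε _ => Submodule.smul_mem _ _ (Submodule.subset_span ⟨_, rfl⟩)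

end

end Vale.Agent.P181
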