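import Vale.Agent.P181.Main
import Vale.Agent.P181.SymPow

namespace Vale.Agent.P181

open Finset Equiv TensorProduct

noncomputable section

variable {ι κ : Type} [Fintype ι] [DecidableEq ι] [Fintype κ] [DecidableEq κ]
  {V : Type} [AddCommGroup V] [Module ℂ V]

omit [DecidableEq ι] [DecidableEq κ] in
theorem exists_phi : ∃ Φ : (⨂[ℂ] _ : ι, ⨂[ℂ] _ : κ, V) →ₗ[ℂ]
    SymmetricPower ℂ κ (SymmetricPower ℂ ι V), ∀ v : ι → κ → V,
      Φ (PiTensorProduct.tprod ℂ fun i => PiTensorProduct.tprod ℂ (v i))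
        = SymmetricPower.tprod ℂ fun j => SymmetricPower.tprod ℂ fun i => v i j := by
  let c := Module.Basis.ofVectorSpace ℂ V
  let cc := Basis.piTensorProduct (fun _ : ι => Basis.piTensorProduct (fun _ : κ => c))
  let Φ : (⨂[ℂ] _ : ι, ⨂[ℂ] _ : κ, V) →ₗ[ℂ] SymmetricPower ℂ κ (SymmetricPower ℂ ι V) :=
    cc.constr ℂ fun p => SymmetricPower.tprod ℂ fun j => SymmetricPower.tprod ℂ fun i => c (p i j)
  let sw : (Σ _ : κ, ι) ≃ (Σ _ : ι, κ) :=
    ⟨fun x => ⟨x.2, x.1⟩, fun x => ⟨x.2, x.1⟩, fun _ => rfl, fun _ => rfl⟩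
  let L : MultilinearMap ℂ (fun _ : (Σ _ : ι, κ) => V)
      (SymmetricPower ℂ κ (SymmetricPower ℂ ι V)) :=
    Φ.compMultilinearMap ((PiTensorProduct.tprod ℂ).compMultilinearMap
      (fun _ : ι => PiTensorProduct.tprod ℂ (s := fun _ : κ => V)))
  let R : MultilinearMap ℂ (fun _ : (Σ _ : ι, κ) => V)
      (SymmetricPower ℂ κ (SymmetricPower ℂ ι V)) :=
    MultilinearMap.domDomCongr sw ((SymmetricPower.tprod ℂ).compMultilinearMap
      (fun _ : κ => SymmetricPower.tprod ℂ (ι := ι) (M := V)))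
  have hLR : L = R := by
    refine Module.Basis.ext_multilinear (fun _ => c) fun p => ?_
    have h1 := cc.constr_basis ℂ (fun p => SymmetricPower.tprod ℂ fun j =>
      SymmetricPower.tprod ℂ fun i => c (p i j)) (fun i j => p ⟨i, j⟩)
    simp only [cc, Basis.piTensorProduct_apply] at h1
    exact h1
  refine ⟨Φ, fun v => ?_⟩
  have h2 := DFunLike.congr_fun hLR fun x => v x.1 x.2
  simp only [L, R, LinearMap.compMultilinearMap_apply, MultilinearMap.domDomCongr_apply,
    MultilinearMap.compMultilinearMap_apply] at h2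
  exact h2

theorem exists_psi : ∃ Ψ : SymmetricPower ℂ ι (SymmetricPower ℂ κ V) →ₗ[ℂ]
    SymmetricPower ℂ κ (SymmetricPower ℂ ι V), ∀ v : ι → κ → V,
      Ψ (SymmetricPower.tprod ℂ fun i => SymmetricPower.tprod ℂ (v i))
        = ∑ σ : ι → Perm κ,
          SymmetricPower.tprod ℂ fun j => SymmetricPower.tprod ℂ fun i => v i (σ i j) := by
  obtain ⟨Φ, hΦ⟩ := exists_phi (ι := ι) (κ := κ) (V := V)
  let F : MultilinearMap ℂ (fun _ : ι => SymmetricPower ℂ κ V)
      (SymmetricPower ℂ κ (SymmetricPower ℂ ι V)) :=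
    Φ.compMultilinearMap ((PiTensorProduct.tprod ℂ).compLinearMap fun _ => symz)
  have hF : ∀ v : ι → κ → V, F (fun i => SymmetricPower.tprod ℂ (v i)) = ∑ σ : ι → Perm κ,
      SymmetricPower.tprod ℂ fun j => SymmetricPower.tprod ℂ fun i => v i (σ i j) := by
    intro v
    simp only [F, LinearMap.compMultilinearMap_apply, MultilinearMap.compLinearMap_apply,
      symz_tprod]
    rw [MultilinearMap.map_sum, map_sum]
    exact sum_congr rfl fun σ _ => hΦ fun i j => v i (σ i j)
  have hs : ∀ (e : Perm ι) (u : ι → SymmetricPower ℂ κ V), F (fun i => u (e i)) = F u := by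
    intro e u
    have : F.domDomCongr e = F := by
      refine MultilinearMap.ext_of_span_eq_top (γ := fun _ : ι => κ → V)
        (g := fun _ j => SymmetricPower.tprod ℂ j)
        (fun _ => SymmetricPower.span_tprod_eq_top ℂ κ V) fun v => ?_
      rw [MultilinearMap.domDomCongr_apply, hF, hF]
      symm
      refine Fintype.sum_equiv (Equiv.arrowCongr e.symm (Equiv.refl _)) _ _ fun σ => ?_
      congr 1
      funext j
      exact (SymmetricPower.tprod_equiv e fun i => v i (σ i j)).symm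
    exact DFunLike.congr_fun this u
  exact ⟨slift F hs, fun v => by rw [slift_tprod, hF]⟩

/-- Linear forms on `V`, as functions. -/
def WW (V : Type) [AddCommGroup V] [Module ℂ V] : Submodule ℂ (V → ℂ) where
  carrier := {f | ∃ η : V →ₗ[ℂ] ℂ, f = η}
  add_mem' := by
    rintro _ _ ⟨η, rfl⟩ ⟨η', rfl⟩
    exact ⟨η + η', rfl⟩
  zero_mem' := ⟨0, rfl⟩
  smul_mem' := by
    rintro c _ ⟨η, rfl⟩
    exact ⟨c • η, rfl⟩

def rho (i : ι) : (V → ℂ) →ₐ[ℂ] ((ι → V) → ℂ) where
  toFun g ξ := g (ξ i)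
  map_one' := rfl
  map_mul' _ _ := rfl
  map_zero' := rfl
  map_add' _ _ := rfl
  commutes' _ := rfl

def Th (l : SymmetricPower ℂ κ V →ₗ[ℂ] ℂ) : V → ℂ :=
  fun v => l (SymmetricPower.tprod ℂ fun _ => v)

omit [Fintype κ] in
theorem prod_mem_pow {S : Type*} [CommRing S] [Algebra ℂ S] (W : Submodule ℂ S) (s : Finset κ)
    (f : κ → S) (hf : ∀ j, f j ∈ W) : ∏ j ∈ s, f j ∈ W ^ s.card := by
  induction s using Finset.induction_on with
  | empty =>
    rw [prod_empty, card_empty, pow_zero]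
    exact Submodule.one_le.1 le_rfl
  | insert a s ha ih =>
    rw [prod_insert ha, card_insert_of_notMem ha, pow_succ, mul_comm (f a)]
    exact Submodule.mul_mem_mul ih (hf a)

theorem Th_mem [FiniteDimensional ℂ V] (l : SymmetricPower ℂ κ V →ₗ[ℂ] ℂ) :
    Th l ∈ WW V ^ Fintype.card κ := by
  let c := Module.finBasis ℂ V
  have : Th l = ∑ α : κ → Fin (Module.finrank ℂ V),
      l (SymmetricPower.tprod ℂ fun j => c (α j)) • ∏ j, (c.coord (α j) : V → ℂ) := by
    funext v
    have h1 : (fun _ : κ => v) = fun _ : κ => ∑ p, c.repr v p • c p := by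
      funext _; rw [c.sum_repr]
    rw [Th, h1, MultilinearMap.map_sum, map_sum, Finset.sum_apply]
    refine sum_congr rfl fun α _ => ?_
    rw [MultilinearMap.map_smul_univ, map_smul]
    simp [mul_comm]
  rw [this]
  refine Submodule.sum_mem _ fun α _ => Submodule.smul_mem _ _ ?_
  exact prod_mem_pow (WW V) univ _ fun j => ⟨_, rfl⟩

theorem exists_beta (φ : SymmetricPower ℂ ι (SymmetricPower ℂ κ V)) :
    ∃ β : ((ι → V) → ℂ) →ₗ[ℂ] ℂ,
      (∀ g : ι → V → ℂ, ∀ e : Perm ι, β (∏ l, rho l (g (e l))) = β (∏ l, rho l (g l))) ∧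
      ∀ lam : ι → SymmetricPower ℂ κ V →ₗ[ℂ] ℂ, β (∏ l, rho l (Th (lam l))) = BB lam φ := by
  have hspan : Submodule.span ℂ (Set.range fun v : ι → V =>
      (SymmetricPower.tprod ℂ fun i => SymmetricPower.tprod ℂ fun _ : κ => v i)) = ⊤ := by
    rw [← (Submodule.span ℂ _).ker_mkQ, LinearMap.ker_eq_top]
    refine sext_span _ (span_powers (ι := κ) (M := V)) fun v => ?_
    simp only [Submodule.mkQ_apply, LinearMap.zero_apply, Submodule.Quotient.mk_eq_zero]
    exact Submodule.subset_span ⟨v, rfl⟩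
  have hφ : φ ∈ Submodule.span ℂ (Set.range fun v : ι → V =>
      (SymmetricPower.tprod ℂ fun i => SymmetricPower.tprod ℂ fun _ : κ => v i)) := by
    rw [hspan]; trivial
  induction hφ using Submodule.span_induction with
  | mem x hx =>
    obtain ⟨v, rfl⟩ := hx
    refine ⟨∑ σ : Perm ι, LinearMap.proj (R := ℂ) (φ := fun _ : ι → V => ℂ) (fun i => v (σ i)),
      fun g e => ?_, fun lam => ?_⟩
    · simp only [LinearMap.sum_apply, LinearMap.proj_apply, Finset.prod_apply]
      symm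
      refine Fintype.sum_equiv (Equiv.mulRight e) _ _ fun σ => ?_
      exact (Fintype.prod_equiv e _ _ fun i => rfl).symm
    · simp only [LinearMap.sum_apply, LinearMap.proj_apply, Finset.prod_apply]
      rw [BB_tprod]
      rfl
  | zero => exact ⟨0, fun _ _ => rfl, fun _ => by simp⟩
  | add x y _ _ hx hy =>
    obtain ⟨β, h1, h2⟩ := hx
    obtain ⟨β', h1', h2'⟩ := hy
    exact ⟨β + β', fun g e => by simp only [LinearMap.add_apply, h1, h1'],
      fun lam => by simp only [LinearMap.add_apply, h2, h2', map_add]⟩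
  | smul c x _ hx =>
    obtain ⟨β, h1, h2⟩ := hx
    exact ⟨c • β, fun g e => by simp only [LinearMap.smul_apply, h1],
      fun lam => by simp only [LinearMap.smul_apply, h2, map_smul]⟩

theorem pair_psi (Ψ : SymmetricPower ℂ ι (SymmetricPower ℂ κ V) →ₗ[ℂ]
    SymmetricPower ℂ κ (SymmetricPower ℂ ι V)) (hΨ : ∀ v : ι → κ → V,
      Ψ (SymmetricPower.tprod ℂ fun i => SymmetricPower.tprod ℂ (v i))
        = ∑ σ : ι → Perm κ,
          SymmetricPower.tprod ℂ fun j => SymmetricPower.tprod ℂ fun i => v i (σ i j))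
    (η : κ → V →ₗ[ℂ] ℂ) :
    ((Fintype.card ι).factorial : ℂ) • (BB (fun j => BB fun _ : ι => η j) ∘ₗ Ψ)
      = (((Fintype.card ι).factorial : ℂ) ^ Fintype.card κ * (Fintype.card κ).factorial) •
        BB (fun _ : ι => BB η) := by
  refine sext2 fun v => ?_
  rw [LinearMap.smul_apply, LinearMap.smul_apply, LinearMap.comp_apply, hΨ, map_sum, BB_const]
  simp only [BB_tprod (ι := κ), BB_const, prod_mul_distrib, prod_const, card_univ]
  rw [sum_comm]
  have h1 : ∀ τ : Perm κ, ∑ σ : ι → Perm κ, ((Fintype.card ι).factorial : ℂ) ^ Fintype.card κ *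
      ∏ j, ∏ i, η j (v i (σ i (τ j))) = ((Fintype.card ι).factorial : ℂ) ^ Fintype.card κ *
        ∏ i, ∑ σ : Perm κ, ∏ j, η j (v i (σ j)) := by
    intro τ
    rw [← mul_sum, prod_univ_sum, Fintype.piFinset_univ]
    congr 1
    refine Fintype.sum_equiv (Equiv.piCongrRight fun _ => Equiv.mulRight τ) _ _ fun σ => ?_
    rw [prod_comm]
    rfl
  simp only [h1, sum_const, card_univ, Fintype.card_perm, nsmul_eq_mul, smul_eq_mul]
  ring

theorem psi_injective [FiniteDimensional ℂ V] {b : ℕ} (hb : (Fintype.card ι - 1) ^ 2 ≤ b)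
    (Ψ : SymmetricPower ℂ ι (SymmetricPower ℂ (Fin b) V) →ₗ[ℂ]
    SymmetricPower ℂ (Fin b) (SymmetricPower ℂ ι V)) (hΨ : ∀ v : ι → Fin b → V,
      Ψ (SymmetricPower.tprod ℂ fun i => SymmetricPower.tprod ℂ (v i))
        = ∑ σ : ι → Perm (Fin b),
          SymmetricPower.tprod ℂ fun j => SymmetricPower.tprod ℂ fun i => v i (σ i j)) :
    Function.Injective Ψ := by
  rw [injective_iff_map_eq_zero]
  intro φ hφ
  obtain ⟨β, h1, h2⟩ := exists_beta φ
  have hf : ∀ n : ℕ, (n.factorial : ℂ) ≠ 0 := fun n => Nat.cast_ne_zero.2 n.factorial_ne_zero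
  have h3 := core (W := WW V) (rho (ι := ι) (V := V)) univ b hb β
    (fun g i _ k _ => h1 g (Equiv.swap i k)) (fun y hy => by
      obtain ⟨f, hf1, rfl⟩ := hy.exists_fin
      choose η hη using hf1
      have h4 := DFunLike.congr_fun (pair_psi Ψ hΨ η) φ
      rw [LinearMap.smul_apply, LinearMap.smul_apply, LinearMap.comp_apply, hφ, map_zero,
        smul_zero, eq_comm, smul_eq_zero] at h4
      have h5 := h4.resolve_left (mul_ne_zero (pow_ne_zero _ (hf _)) (hf _))
      rw [← h2] at h5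
      have h6 : Th (BB η) = ((Fintype.card (Fin b)).factorial : ℂ) • ∏ j, f j := by
        funext v
        rw [Th, BB_tprod]
        simp [hη, Fintype.card_perm]
      simp only [h6, map_smul, Finset.prod_smul, prod_const, smul_eq_zero] at h5
      exact h5.resolve_left (pow_ne_zero _ (hf _)))
  refine eq_zero_of_BB φ fun lam => ?_
  rw [← h2]
  exact h3 _ fun l _ => by simpa using Th_mem (lam l)

def rep2 (ι κ V : Type) [Finite ι] [AddCommGroup V] [Module ℂ V] :
    Representation ℂ (V ≃ₗ[ℂ] V) (SymmetricPower ℂ ι (SymmetricPower ℂ κ V)) where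
  toFun g := smap (smap g.toLinearMap)
  map_one' := sext2 fun v => by simp only [smap_tprod]; rfl
  map_mul' g h := sext2 fun v => by
    simp only [Module.End.mul_apply, smap_tprod]; rfl

omit [DecidableEq ι] [Fintype κ] [DecidableEq κ] in
theorem rep2_tprod (g : V ≃ₗ[ℂ] V) (v : ι → κ → V) :
    rep2 ι κ V g (SymmetricPower.tprod ℂ fun i => SymmetricPower.tprod ℂ (v i))
      = SymmetricPower.tprod ℂ fun i => SymmetricPower.tprod ℂ fun j => g (v i j) := by
  change smap (smap g.toLinearMap) _ = _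
  simp only [smap_tprod]; rfl

end

end Vale.Agent.P181
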