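import Vale.Agent.P181.Core

namespace Vale.Agent.P181

open Polynomial Finset

variable {S A : Type*} [CommRing S] [Algebra ℂ S] [CommRing A] [Algebra ℂ A]

def PP (W : Submodule ℂ S) (ρ : S →ₐ[ℂ] A) (φ : A →ₗ[ℂ] ℂ) (w : S) (G : A[X]) (D e M : ℕ) : Prop :=
  ∀ k m d n, k + m = D → d + m + e = M → n ∈ W ^ d → φ (ρ n * ρ w ^ (m + e) * G.coeff k) = 0

theorem PP_step {W : Submodule ℂ S} {ρ : S →ₐ[ℂ] A} {φ : A →ₗ[ℂ] ℂ} {v w : S} (hv : v ∈ W)
    {G : A[X]} {D e M : ℕ} (hG : G.natDegree ≤ D)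
    (h : PP W ρ φ w ((C (ρ v) + X * C (ρ w)) * G) (D + 1) e M) :
    PP W ρ φ w G D (e + 1) (M + 1) := by
  intro k m
  have hc : ∀ k, ((C (ρ v) + X * C (ρ w)) * G).coeff (k + 1)
      = ρ v * G.coeff (k + 1) + ρ w * G.coeff k := by
    intro k
    rw [add_mul, coeff_add, coeff_C_mul, mul_assoc, coeff_X_mul, coeff_C_mul]
  induction m generalizing k with
  | zero =>
    intro d n hk hd hn
    have h1 := h (k + 1) 0 d n (by omega) (by omega) hn
    rw [hc, coeff_eq_zero_of_natDegree_lt (p := G) (n := k + 1) (by omega)] at h1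
    rw [← h1]; congr 1; ring
  | succ m ih =>
    intro d n hk hd hn
    have h1 := h (k + 1) (m + 1) d n (by omega) (by omega) hn
    have h2 := ih (k + 1) (d + 1) (n * v) (by omega) (by omega)
      (by rw [pow_succ]; exact Submodule.mul_mem_mul hn hv)
    rw [hc] at h1
    have h3 : ρ n * ρ w ^ (m + 1 + (e + 1)) * G.coeff k
        = ρ n * ρ w ^ (m + 1 + e) * (ρ v * G.coeff (k + 1) + ρ w * G.coeff k)
          - ρ (n * v) * ρ w ^ (m + (e + 1)) * G.coeff (k + 1) := by
      rw [map_mul]; ring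
    rw [h3, map_sub, h1, h2, sub_zero]

omit [Algebra ℂ A] in
theorem natDegree_lin (p q : A) : (C p + X * C q : A[X]).natDegree ≤ 1 := by
  refine (natDegree_add_le _ _).trans (max_le (by simp) ?_)
  refine natDegree_mul_le.trans ?_
  have := natDegree_X_le (R := A)
  simp only [natDegree_C]; omega

theorem PP_iter {W : Submodule ℂ S} {ρ : S →ₐ[ℂ] A} {φ : A →ₗ[ℂ] ℂ} {v w : S} (hv : v ∈ W)
    {G : A[X]} {D : ℕ} (hG : G.natDegree ≤ D) (j : ℕ) {e M : ℕ}
    (h : PP W ρ φ w ((C (ρ v) + X * C (ρ w)) ^ j * G) (D + j) e M) :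
    PP W ρ φ w G D (e + j) (M + j) := by
  induction j generalizing e M with
  | zero => simpa using h
  | succ j ih =>
    rw [pow_succ', mul_assoc, ← add_assoc] at h
    have h1 := PP_step hv (D := D + j) (by
      refine natDegree_mul_le.trans ?_
      have := (natDegree_pow_le (p := (C (ρ v) + X * C (ρ w))) (n := j))
      have h2 := natDegree_lin (ρ v) (ρ w)
      nlinarith) h
    have h2 := ih h1
    rwa [add_assoc, add_assoc, add_comm 1 j] at h2

theorem lemmaA {ι : Type*} {W : Submodule ℂ S} (ρ : S →ₐ[ℂ] A) (φ : A →ₗ[ℂ] ℂ)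
    (ρs : ι → S →ₐ[ℂ] A) (J : Finset ι) (e j μ : ℕ) (hμ : J.card * e ≤ μ)
    (h : ∀ u ∈ W, ∀ g ∈ W ^ μ, φ (ρ g * ρ u ^ j * ∏ l ∈ J, ρs l u ^ e) = 0) :
    ∀ v ∈ W, ∀ g ∈ W ^ (μ + j), φ (ρ g * ∏ l ∈ J, ρs l v ^ e) = 0 := by
  intro v hv
  let ψ : S →ₗ[ℂ] ℂ := φ ∘ₗ LinearMap.mulRight ℂ (∏ l ∈ J, ρs l v ^ e) ∘ₗ ρ.toLinearMap
  refine zero_on_pow_of_powers (W := W) (μ + j) ψ (fun w hw => ?_)
  let G : A[X] := ∏ l ∈ J, (C (ρs l v) + X * C (ρs l w)) ^ e
  have hG : G.natDegree ≤ J.card * e := by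
    refine (natDegree_prod_le _ _).trans ?_
    rw [← smul_eq_mul, ← sum_const]
    refine sum_le_sum fun l _ => natDegree_pow_le.trans ?_
    have := natDegree_lin (ρs l v) (ρs l w)
    nlinarith
  have h0 : G.coeff 0 = ∏ l ∈ J, ρs l v ^ e := by
    rw [coeff_zero_eq_eval_zero]
    simp [G, eval_prod]
  have h1 : PP W ρ φ w ((C (ρ v) + X * C (ρ w)) ^ j * G) (J.card * e + j) 0 μ := by
    intro k m d n _ hd hn
    have hg : n * w ^ m ∈ W ^ μ := by
      rw [← hd, add_zero, pow_add]
      exact Submodule.mul_mem_mul hn (Submodule.pow_mem_pow W hw m)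
    have h2 := coeff_zero_of_eval (φ ∘ₗ LinearMap.mulLeft ℂ (ρ (n * w ^ m)))
      ((C (ρ v) + X * C (ρ w)) ^ j * G) (fun t => by
        have h3 := h (v + t • w) (W.add_mem hv (W.smul_mem t hw)) _ hg
        simp only [map_add, Algebra.smul_def, map_mul, AlgHom.commutes] at h3
        simp only [LinearMap.comp_apply, LinearMap.mulLeft_apply, G, eval_mul, eval_pow, eval_add,
          eval_C, eval_X, eval_prod, map_mul]
        rw [← mul_assoc]
        exact h3) k
    simpa [mul_assoc] using h2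
  have h2 := PP_iter hv hG j h1 0 (J.card * e) (μ - J.card * e) (w ^ (μ - J.card * e))
    (by omega) (by omega) (Submodule.pow_mem_pow W hw _)
  rw [h0, map_pow, ← pow_add] at h2
  have h3 : μ - J.card * e + (J.card * e + (0 + j)) = μ + j := by omega
  rw [h3] at h2
  simpa [ψ] using h2

theorem prod_ite_row {ι : Type*} [DecidableEq ι] (ρ : ι → S →ₐ[ℂ] A) (I : Finset ι) {i : ι}
    (hi : i ∈ I) (y z : S) :
    ∏ l ∈ I, ρ l (if l = i then y else z) = ρ i y * ∏ l ∈ I.erase i, ρ l z := by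
  rw [← mul_prod_erase I _ hi, if_pos rfl]
  congr 1
  exact prod_congr rfl fun l hl => by rw [if_neg (ne_of_mem_erase hl)]

theorem newton {ι : Type*} [DecidableEq ι] (ρ : ι → S →ₐ[ℂ] A) (I : Finset ι) {o : ι}
    (ho : o ∈ I) (β : A →ₗ[ℂ] ℂ)
    (hs : ∀ g : ι → S, ∀ i ∈ I, ∀ k ∈ I,
      β (∏ l ∈ I, ρ l (g (Equiv.swap i k l))) = β (∏ l ∈ I, ρ l (g l)))
    (y z : S) (h : ∀ s : ℂ, β (∏ l ∈ I, ρ l (z + s • y)) = 0) :
    β (ρ o y * ∏ l ∈ I.erase o, ρ l z) = 0 := by
  have h1 := coeff_zero_of_eval β (∏ l ∈ I, (C (ρ l z) + X * C (ρ l y))) (fun t => by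
    have := h t
    simp only [map_add, Algebra.smul_def, map_mul, AlgHom.commutes] at this
    simp only [eval_prod, eval_add, eval_mul, eval_C, eval_X]
    exact this) 1
  have h2 : (∏ l ∈ I, (C (ρ l z) + X * C (ρ l y)) : A[X]).coeff 1
      = ∑ i ∈ I, ρ i y * ∏ l ∈ I.erase i, ρ l z := by
    have h3 := coeff_derivative (∏ l ∈ I, (C (ρ l z) + X * C (ρ l y)) : A[X]) 0
    simp only [zero_add, Nat.cast_zero, mul_one] at h3
    rw [← h3, coeff_zero_eq_eval_zero, derivative_prod_finset, eval_finsetSum]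
    refine sum_congr rfl fun i _ => ?_
    simp only [derivative_add, derivative_C, derivative_mul, derivative_X, eval_mul, eval_prod,
      eval_add, eval_C, eval_X, mul_zero, zero_add, add_zero, zero_mul, one_mul]
    rw [mul_comm]
  have h4 : ∀ i ∈ I, β (ρ i y * ∏ l ∈ I.erase i, ρ l z) = β (ρ o y * ∏ l ∈ I.erase o, ρ l z) := by
    intro i hi
    rw [← prod_ite_row ρ I hi, ← prod_ite_row ρ I ho,
      ← hs (fun l => if l = o then y else z) i hi o ho]
    congr 1
    refine prod_congr rfl fun l _ => ?_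
    congr 1
    have : (Equiv.swap i o l = o) ↔ l = i := by
      rw [Equiv.swap_apply_eq_iff, Equiv.swap_apply_right]
    simp only [this]
  rw [h2, map_sum, sum_congr rfl h4, sum_const, nsmul_eq_mul, mul_eq_zero] at h1
  rcases h1 with h1 | h1
  · exact absurd h1 (Nat.cast_ne_zero.2 (card_pos.2 ⟨o, ho⟩).ne')
  · exact h1

theorem step12 {ι : Type*} [DecidableEq ι] {W : Submodule ℂ S} (ρ : ι → S →ₐ[ℂ] A)
    (I : Finset ι) {o : ι} (ho : o ∉ I) (hj : 0 < I.card) (c : ℕ) (β : A →ₗ[ℂ] ℂ)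
    (hs : ∀ g : ι → S, ∀ i ∈ insert o I, ∀ k ∈ insert o I,
      β (∏ l ∈ insert o I, ρ l (g (Equiv.swap i k l))) = β (∏ l ∈ insert o I, ρ l (g l)))
    (h : ∀ y, Ch W (c + I.card) y → β (∏ l ∈ insert o I, ρ l y) = 0)
    (x : S) (hx : x ∈ W) (m : ℕ) :
    ∀ n h1 h2, m + n = c → Ch W m h1 → Ch W n h2 → ∀ g ∈ W ^ (I.card + m),
      β (ρ o (g * h2) * ∏ l ∈ I, ρ l (h1 * h2 * x ^ I.card)) = 0 := by
  induction m with
  | zero =>
    intro n h1 h2 hn c1 c2
    obtain rfl := c1.inv_zero
    rw [zero_add] at hn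
    subst hn
    let ψ : S →ₗ[ℂ] ℂ := β ∘ₗ LinearMap.mulRight ℂ (∏ l ∈ I, ρ l (1 * h2 * x ^ I.card)) ∘ₗ
      (ρ o).toLinearMap ∘ₗ LinearMap.mulRight ℂ h2
    refine zero_on_pow_of_powers (W := W) (I.card + 0) ψ (fun w hw => ?_)
    have h3 := newton ρ (insert o I) (mem_insert_self o I) β hs (w ^ I.card * h2)
      (1 * h2 * x ^ I.card) (fun s => h _ (by
        have := c2.mul' (ch_binary I.card hj x w hx hw s)
        have e : 1 * h2 * x ^ I.card + s • (w ^ I.card * h2)
            = h2 * (x ^ I.card + s • w ^ I.card) := by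
          simp only [Algebra.smul_def]; ring
        rw [e]; exact this))
    rw [erase_insert ho] at h3
    exact h3
  | succ m ih =>
    intro n h1 h2 hn c1 c2 g hg
    obtain ⟨h1', v, c1', hv, rfl⟩ := c1.inv_succ
    have h3 := lemmaA (W := W) (ρ o)
      (β ∘ₗ LinearMap.mulLeft ℂ (ρ o h2 * ∏ l ∈ I, ρ l (h1' * h2 * x ^ I.card))) ρ I 1 1
      (I.card + m) (by omega) (fun u hu g hg => by
        have h4 := ih (n + 1) h1' (h2 * u) (by omega) c1' (c2.mul hu) g hg
        rw [← h4, LinearMap.comp_apply, LinearMap.mulLeft_apply]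
        congr 1
        simp only [map_mul, pow_one, prod_mul_distrib]
        ring) v hv g hg
    rw [← h3, LinearMap.comp_apply, LinearMap.mulLeft_apply]
    congr 1
    simp only [map_mul, pow_one, prod_mul_distrib]
    ring

theorem step4 {ι : Type*} [DecidableEq ι] {W : Submodule ℂ S} (ρ : ι → S →ₐ[ℂ] A)
    (I I' : Finset ι) (hI : I' ⊆ I) (j c : ℕ) (hc : (I'.card - 1) * j ≤ c) (β : A →ₗ[ℂ] ℂ)
    (h : ∀ g : ι → S, (∀ l ∈ I, g l ∈ W ^ (if l ∈ I' then c else c + j)) → ∀ x ∈ W,
      β ((∏ l ∈ I, ρ l (g l)) * ∏ l ∈ I', ρ l x ^ j) = 0) (n : ℕ) :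
    ∀ J ⊆ I', J.card + n = I'.card →
      ∀ g : ι → S, (∀ l ∈ I, g l ∈ W ^ (if l ∈ J then c else c + j)) → ∀ x ∈ W,
      β ((∏ l ∈ I, ρ l (g l)) * ∏ l ∈ J, ρ l x ^ j) = 0 := by
  induction n with
  | zero =>
    intro J hJ hn
    obtain rfl := eq_of_subset_of_card_le hJ (by omega)
    exact h
  | succ n ih =>
    intro J hJ hn g hg x hx
    obtain ⟨k, hk, hkJ⟩ := exists_mem_notMem_of_card_lt_card (s := J) (t := I') (by omega)
    have hkI := hI hk
    have h1 := ih (insert k J) (insert_subset hk hJ) (by rw [card_insert_of_notMem hkJ]; omega)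
    have h2 := lemmaA (W := W) (ρ k)
      (β ∘ₗ LinearMap.mulLeft ℂ (∏ l ∈ I.erase k, ρ l (g l))) ρ J j j c
      (le_trans (Nat.mul_le_mul_right j (by omega)) hc) (fun u hu g' hg' => by
        have h3 := h1 (Function.update g k g') (fun l hl => by
          by_cases hlk : l = k
          · subst hlk
            simpa using hg'
          · have := hg l hl
            simpa [Function.update_of_ne hlk, hlk] using this) u hu
        rw [← h3, LinearMap.comp_apply, LinearMap.mulLeft_apply, prod_insert hkJ,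
          ← mul_prod_erase I _ hkI, Function.update_self]
        have : ∏ l ∈ I.erase k, ρ l (Function.update g k g' l) = ∏ l ∈ I.erase k, ρ l (g l) :=
          prod_congr rfl fun l hl => by rw [Function.update_of_ne (ne_of_mem_erase hl)]
        rw [this]
        congr 1
        ring) x hx (g k) (by simpa [hkJ] using hg k hkI)
    rw [← h2, LinearMap.comp_apply, LinearMap.mulLeft_apply, ← mul_prod_erase I _ hkI]
    congr 1
    ring

theorem core {ι : Type*} [DecidableEq ι] {W : Submodule ℂ S} (ρ : ι → S →ₐ[ℂ] A)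
    (I : Finset ι) : ∀ (b : ℕ) (_ : (I.card - 1) ^ 2 ≤ b) (β : A →ₗ[ℂ] ℂ)
    (_ : ∀ g : ι → S, ∀ i ∈ I, ∀ k ∈ I,
      β (∏ l ∈ I, ρ l (g (Equiv.swap i k l))) = β (∏ l ∈ I, ρ l (g l)))
    (_ : ∀ y, Ch W b y → β (∏ l ∈ I, ρ l y) = 0)
    (g : ι → S) (_ : ∀ l ∈ I, g l ∈ W ^ b), β (∏ l ∈ I, ρ l (g l)) = 0 := by
  induction I using Finset.induction_on with
  | empty =>
    intro b _ β _ h g _
    simpa using h _ (Ch.prod_range b (fun _ => 0) (fun _ => W.zero_mem))
  | insert o I ho ih =>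
    intro b hb β hs h g hg
    rcases Nat.eq_zero_or_pos I.card with hj | hj
    · obtain rfl := card_eq_zero.1 hj
      have := zero_on_pow_of_ch (W := W) b (β ∘ₗ (ρ o).toLinearMap)
        (fun y hy => by simpa using h y hy) (g o) (hg o (mem_insert_self _ _))
      simpa using this
    · rw [card_insert_of_notMem ho, Nat.add_sub_cancel] at hb
      obtain ⟨c, rfl⟩ : ∃ c, b = c + I.card := 
        ⟨b - I.card, (Nat.sub_add_cancel (by nlinarith : I.card ≤ b)).symm⟩
      obtain ⟨j, hj'⟩ : ∃ j, I.card = j + 1 := ⟨I.card - 1, by omega⟩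
      have hc : (I.card - 1) * I.card ≤ c := by
        rw [hj'] at hb ⊢
        simp only [Nat.add_sub_cancel]
        nlinarith
      have hc2 : (I.card - 1) ^ 2 ≤ c := by
        refine le_trans ?_ hc
        rw [pow_two]
        exact Nat.mul_le_mul_left _ (Nat.sub_le _ _)
      have h4 := step4 (W := W) ρ (insert o I) I (subset_insert o I) I.card c hc β
        (fun g hg x hx => by
          have hgo : g o ∈ W ^ (I.card + c) := by
            have := hg o (mem_insert_self _ _)
            rw [if_neg ho, add_comm] at this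
            exact this
          have h5 := ih c hc2
            (β ∘ₗ LinearMap.mulLeft ℂ (ρ o (g o) * ∏ l ∈ I, ρ l x ^ I.card))
            (fun g' i hi k hk => by
              have h6 := hs (fun l => if l = o then g o else x ^ I.card * g' l) i
                (mem_insert_of_mem hi) k (mem_insert_of_mem hk)
              have hio : o ≠ i := fun e => ho (e ▸ hi)
              have hko : o ≠ k := fun e => ho (e ▸ hk)
              rw [prod_insert ho, prod_insert ho, Equiv.swap_apply_of_ne_of_ne hio hko] at h6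
              simp only [if_true] at h6
              have e1 : ∏ l ∈ I, ρ l (if Equiv.swap i k l = o then g o
                  else x ^ I.card * g' (Equiv.swap i k l))
                  = (∏ l ∈ I, ρ l x ^ I.card) * ∏ l ∈ I, ρ l (g' (Equiv.swap i k l)) := by
                rw [← prod_mul_distrib]
                refine prod_congr rfl fun l hl => ?_
                rw [if_neg, map_mul, map_pow]
                intro e
                rw [Equiv.swap_apply_eq_iff, Equiv.swap_apply_of_ne_of_ne hio hko] at e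
                exact ho (e ▸ hl)
              have e2 : ∏ l ∈ I, ρ l (if l = o then g o else x ^ I.card * g' l)
                  = (∏ l ∈ I, ρ l x ^ I.card) * ∏ l ∈ I, ρ l (g' l) := by
                rw [← prod_mul_distrib]
                refine prod_congr rfl fun l hl => ?_
                rw [if_neg (fun e : l = o => ho (e ▸ hl)), map_mul, map_pow]
              rw [e1, e2, ← mul_assoc, ← mul_assoc] at h6
              exact h6)
            (fun y hy => by
              have h6 := step12 ρ I ho hj c β hs h x hx c 0 y 1 rfl hy Ch.one (g o) hgo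
              rw [← h6, LinearMap.comp_apply, LinearMap.mulLeft_apply]
              congr 1
              simp only [map_mul, map_pow, mul_one, prod_mul_distrib]
              ring) g (fun l hl => by simpa [hl] using hg l (mem_insert_of_mem hl))
          rw [← h5, LinearMap.comp_apply, LinearMap.mulLeft_apply, prod_insert ho]
          congr 1
          ring) I.card ∅ (empty_subset _) (by simp) g (fun l hl => by simpa using hg l hl)
        0 W.zero_mem
      simpa using h4

end Vale.Agent.P181
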